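import Mathlib

set_option autoImplicit false

namespace Crest.Agent.R47

/-- The pattern: a 3×3 cross in the corner, three certifying ones on each strip, and the
complement of the identity on the 63×63 core. -/
def Hp (a b : ℕ) : Prop :=
  (a < 3 ∧ b < 3 ∧ (a + b) % 2 = 1) ∨ (a < 3 ∧ b = a + 3) ∨ (b < 3 ∧ a = b + 3) ∨
    (3 ≤ a ∧ 3 ≤ b ∧ a ≠ b)

/-- dyadic interval index -/
def I (k i : ℕ) : ℕ := i / 2 ^ k

lemma I_succ (k i : ℕ) : I (k + 1) i = I k i / 2 := by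
  simp [I, pow_succ, Nat.div_div_eq_div_mul]

lemma I_zero (i : ℕ) : I 0 i = i := by simp [I]

lemma I_mono (k : ℕ) {i j : ℕ} (h : i ≤ j) : I k i ≤ I k j := Nat.div_le_div_right h

lemma I_top {h k i : ℕ} (hk : k + 1 = h) (hi : i < 2 ^ h) : I k i < 2 := by
  unfold I
  rw [Nat.div_lt_iff_lt_mul (by positivity)]
  rw [← hk, pow_succ] at hi
  omega

/-- index type of rows and of columns -/
abbrev R (h : ℕ) : Type :=
  (Fin (2 ^ h) × Fin h × Fin 2) ⊕ ((Fin h × Fin 3) × Fin 66 × Fin (2 ^ h))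

/-- role of a main row `(i, k', s)` in gadget `(k, kind)` -/
def mrr (k kind i k' s a : ℕ) : Prop :=
  (kind < 2 ∧ k' = k ∧ I k' i % 2 = kind ∧ a = 1) ∨
  (kind = 2 ∧ k = 0 ∧ k' = 0 ∧ s = 0 ∧ a = 1) ∨
  (kind = 2 ∧ k ≠ 0 ∧ k' = k ∧ a = 2 * s) ∨
  (kind = 2 ∧ k' + 1 = k ∧ a = 1)

/-- role of a main column `(j, k', s)` in gadget `(k, kind)` -/
def mcr (k kind j k' s b : ℕ) : Prop :=
  (kind < 2 ∧ k' = k ∧ I k' j % 2 = kind ∧ b = 1) ∨
  (kind < 2 ∧ k' = k + 1 ∧ b = 2 * s) ∨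
  (kind = 2 ∧ k = 0 ∧ k' = 0 ∧ s = 0 ∧ b = 0) ∨
  (kind = 2 ∧ k ≠ 0 ∧ k' = k ∧ b = 1)

def actR (k kind a : ℕ) : Prop := 3 ≤ a ∨ (a ≠ 1 ∧ (kind < 2 ∨ k = 0))

def actC (h k kind b : ℕ) : Prop :=
  3 ≤ b ∨ (kind = 2 ∧ k = 0 ∧ b ≠ 0) ∨ (kind = 2 ∧ k ≠ 0 ∧ b ≠ 1) ∨ (kind < 2 ∧ k + 1 = h ∧ b ≠ 1)

variable {h : ℕ}

def rowRole (g : Fin h × Fin 3) (a : ℕ) : R h → Prop
  | .inl (i, k', s) => mrr g.1 g.2 i k' s a
  | .inr (g', a', _) => g' = g ∧ (a' : ℕ) = a ∧ actR g.1 g.2 a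

def colRole (g : Fin h × Fin 3) (b : ℕ) : R h → Prop
  | .inl (j, k', s) => mcr g.1 g.2 j k' s b
  | .inr (g', b', _) => g' = g ∧ (b' : ℕ) = b ∧ actC h g.1 g.2 b

/-- the main block -/
def X (i k j k' : ℕ) : Prop := (k' = k ∨ k' = k + 1) ∧ I k' i = I k' j

/-- the host matrix -/
def M : R h → R h → Prop
  | .inl (i, k, _), .inl (j, k', _) => X i k j k'
  | r, c => ∃ g a b, rowRole g a r ∧ colRole g b c ∧ Hp a b

def k1 : R h → ℕ
  | .inl _ => 1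
  | .inr (_, a, _) => if (a : ℕ) = 0 then 0 else a + 1

def k2 : R h → ℕ
  | .inl (i, _, _) => i
  | .inr (g, _, _) => 3 * g.1 + g.2

def k3 : R h → ℤ
  | .inl (_, k, s) => if (s : ℕ) = 0 then -((k : ℕ) + 1 : ℤ) else (k : ℕ)
  | .inr (_, _, t) => (t : ℕ)

def lt (r r' : R h) : Prop :=
  k1 r < k1 r' ∨ (k1 r = k1 r' ∧ (k2 r < k2 r' ∨ (k2 r = k2 r' ∧ k3 r < k3 r')))

def key (r : R h) : ℕ ×ₗ ℕ ×ₗ ℤ := toLex (k1 r, toLex (k2 r, k3 r))

lemma key_lt (r r' : R h) : key r < key r' ↔ lt r r' := by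
  simp [key, lt, Prod.Lex.toLex_lt_toLex]

lemma key_inj : Function.Injective (key (h := h)) := by
  intro r r' hr
  simp only [key, toLex_inj, Prod.mk.injEq] at hr
  obtain ⟨h1, h2, h3⟩ := hr
  rcases r with ⟨i, k, s⟩ | ⟨⟨k, q⟩, a, t⟩ <;> rcases r' with ⟨i', k', s'⟩ | ⟨⟨k', q'⟩, a', t'⟩ <;>
    simp only [k1, k2, k3] at h1 h2 h3
  · have hs := s.2
    have hs' := s'.2
    have e1 : i = i' := Fin.ext h2
    have e : (k : ℕ) = k' ∧ (s : ℕ) = s' := by split_ifs at h3 <;> omega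
    rw [e1, Fin.ext e.1, Fin.ext e.2]
  · split_ifs at h1 <;> omega
  · split_ifs at h1 <;> omega
  · have hq := q.2
    have hq' := q'.2
    have e1 : (a : ℕ) = a' := by split_ifs at h1 <;> omega
    have e2 : (k : ℕ) = k' := by omega
    have e3 : (q : ℕ) = q' := by omega
    have e4 : (t : ℕ) = t' := by omega
    rw [Fin.ext e1, Fin.ext e2, Fin.ext e3, Fin.ext e4]

lemma exists_emb {α L : Type} [Fintype α] [LinearOrder L] (key : α → L)
    (hinj : Function.Injective key) (n : ℕ) (hn : Fintype.card α ≤ n) :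
    ∃ e : α → Fin n, ∀ r r', e r < e r' ↔ key r < key r' := by
  letI : LinearOrder α := LinearOrder.lift' key hinj
  let φ := monoEquivOfFin α (rfl : Fintype.card α = Fintype.card α)
  refine ⟨fun r => Fin.castLE hn (φ.symm r), fun r r' => ?_⟩
  rw [Fin.castLE_lt_castLE_iff, φ.symm.lt_iff_lt]
  rfl

lemma card_R : Fintype.card (R h) = 200 * h * 2 ^ h := by
  simp [R, Fintype.card_sum, Fintype.card_prod]
  ring

lemma rowRole_unique {g : Fin h × Fin 3} {a a' : ℕ} {r : R h} (h1 : rowRole g a r)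
    (h2 : rowRole g a' r) : a = a' := by
  rcases r with ⟨i, k, s⟩ | ⟨g', a'', t⟩
  · simp only [rowRole, mrr] at h1 h2
    omega
  · simp only [rowRole] at h1 h2
    omega

lemma colRole_unique {g : Fin h × Fin 3} {a a' : ℕ} {r : R h} (h1 : colRole g a r)
    (h2 : colRole g a' r) : a = a' := by
  rcases r with ⟨i, k, s⟩ | ⟨g', a'', t⟩
  · simp only [colRole, mcr] at h1 h2
    omega
  · simp only [colRole] at h1 h2
    omega

lemma M_inr_left (x : (Fin h × Fin 3) × Fin 66 × Fin (2 ^ h)) (c : R h) :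
    M (.inr x) c ↔ ∃ g a b, rowRole g a (.inr x) ∧ colRole g b c ∧ Hp a b := by
  rcases c with c | c <;> rfl

lemma M_inr_right (r : R h) (x : (Fin h × Fin 3) × Fin 66 × Fin (2 ^ h)) :
    M r (.inr x) ↔ ∃ g a b, rowRole g a r ∧ colRole g b (.inr x) ∧ Hp a b := by
  rcases r with c | c <;> rfl

lemma M_inl (x y : Fin (2 ^ h) × Fin h × Fin 2) :
    M (h := h) (.inl x) (.inl y) ↔ X x.1 x.2.1 y.1 y.2.1 := Iff.rfl

/-- (P1), gadget row -/
lemma M_iff_left {g : Fin h × Fin 3} {a b : ℕ} {x : (Fin h × Fin 3) × Fin 66 × Fin (2 ^ h)}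
    {c : R h} (hr : rowRole g a (.inr x)) (hc : colRole g b c) : M (.inr x) c ↔ Hp a b := by
  rw [M_inr_left]
  constructor
  · rintro ⟨g', a', b', h1, h2, h3⟩
    obtain ⟨g0, a0, t⟩ := x
    have : g' = g := by
      simp only [rowRole] at h1 hr
      rw [← h1.1, hr.1]
    subst this
    rw [rowRole_unique hr h1, colRole_unique hc h2]
    exact h3
  · intro h3
    exact ⟨g, a, b, hr, hc, h3⟩

/-- (P1), gadget column -/
lemma M_iff_right {g : Fin h × Fin 3} {a b : ℕ} {x : (Fin h × Fin 3) × Fin 66 × Fin (2 ^ h)}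
    {r : R h} (hr : rowRole g a r) (hc : colRole g b (.inr x)) : M r (.inr x) ↔ Hp a b := by
  rw [M_inr_right]
  constructor
  · rintro ⟨g', a', b', h1, h2, h3⟩
    obtain ⟨g0, a0, t⟩ := x
    have : g' = g := by
      simp only [colRole] at h2 hc
      rw [← h2.1, hc.1]
    subst this
    rw [rowRole_unique hr h1, colRole_unique hc h2]
    exact h3
  · intro h3
    exact ⟨g, a, b, hr, hc, h3⟩

/-- a copy of the pattern in a matrix indexed by `R h` -/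
def IsCopy (B : R h → R h → Prop) (ρ κ : ℕ → R h) : Prop :=
  (∀ a, a < 65 → lt (ρ a) (ρ (a + 1))) ∧ (∀ a, a < 65 → lt (κ a) (κ (a + 1))) ∧
    ∀ a b, a < 66 → b < 66 → (B (ρ a) (κ b) ↔ Hp a b)

end Crest.Agent.R47
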