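import Crest.Agent.R47.Defs

set_option autoImplicit false

namespace Crest.Agent.R47

variable {h : ℕ}

/-- the label of a cell -/
def lab : R h → R h → Fin (2 ^ h) × Fin (2 ^ h)
  | .inl (i, _, _), .inl (j, _, _) => (i, j)
  | .inl (i, _, _), .inr (_, _, t) => (i, t)
  | .inr (_, _, u), .inr (_, _, t) => (u - t, t)
  | .inr (_, _, u), .inl (j, _, _) => (j, u - j)

def goodR (i t : Fin (2 ^ h)) : R h → Prop
  | .inl (i', _, _) => i' = i
  | .inr (_, _, u) => u = i + t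

def goodC (i t : Fin (2 ^ h)) : R h → Prop
  | .inl (i', _, _) => i' = i
  | .inr (_, _, u) => u = t

def isMain : R h → Prop
  | .inl _ => True
  | .inr _ => False

lemma lab_eq {i t : Fin (2 ^ h)} {r c : R h} (hr : goodR i t r) (hc : goodC i t c)
    (hm : ¬ (isMain r ∧ isMain c)) : lab r c = (i, t) := by
  rcases r with ⟨i', k, s⟩ | ⟨g, a, u⟩ <;> rcases c with ⟨j', k', s'⟩ | ⟨g', b, u'⟩ <;>
    simp only [goodR, goodC, isMain] at hr hc hm
  · simp at hm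
  · simp [lab, hr, hc]
  · simp [lab, hr, hc]
  · simp [lab, hr, hc]

/-- the gadget index of role `a` -/
def gad (g : Fin h × Fin 3) (a : ℕ) (u : Fin (2 ^ h)) : R h :=
  .inr (g, ⟨a % 66, Nat.mod_lt _ (by norm_num)⟩, u)

def ext3 (g : Fin h × Fin 3) (u : Fin (2 ^ h)) (x0 x1 x2 : R h) (a : ℕ) : R h :=
  if a = 0 then x0 else if a = 1 then x1 else if a = 2 then x2 else gad g a u

lemma k1_gad (g : Fin h × Fin 3) (a : ℕ) (u : Fin (2 ^ h)) (ha : a < 66) :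
    k1 (gad g a u) = if a = 0 then 0 else a + 1 := by
  simp only [gad, k1, Nat.mod_eq_of_lt ha]

lemma rowRole_gad (g : Fin h × Fin 3) (a : ℕ) (u : Fin (2 ^ h)) (ha : a < 66)
    (hact : actR g.1 g.2 a) : rowRole g a (gad g a u) := by
  simp only [gad, rowRole, Nat.mod_eq_of_lt ha]
  exact ⟨trivial, trivial, hact⟩

lemma colRole_gad (g : Fin h × Fin 3) (a : ℕ) (u : Fin (2 ^ h)) (ha : a < 66)
    (hact : actC h g.1 g.2 a) : colRole g a (gad g a u) := by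
  simp only [gad, colRole, Nat.mod_eq_of_lt ha]
  exact ⟨trivial, trivial, hact⟩

lemma ext3_lt (g : Fin h × Fin 3) (u : Fin (2 ^ h)) {x0 x1 x2 : R h} (h01 : lt x0 x1)
    (h12 : lt x1 x2) (h2 : k1 x2 ≤ 3) : ∀ a, a < 65 → lt (ext3 g u x0 x1 x2 a)
      (ext3 g u x0 x1 x2 (a + 1)) := by
  intro a ha
  by_cases h0 : a = 0
  · subst h0; simpa [ext3] using h01
  by_cases h1 : a = 1
  · subst h1; simpa [ext3] using h12
  by_cases h2' : a = 2
  · subst h2'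
    have : ext3 g u x0 x1 x2 (2 + 1) = gad g 3 u := by simp [ext3]
    rw [this]
    have : ext3 g u x0 x1 x2 2 = x2 := by simp [ext3]
    rw [this]
    left
    rw [k1_gad _ _ _ (by norm_num)]
    simp only [OfNat.ofNat_ne_zero, ↓reduceIte]
    omega
  · have e1 : ext3 g u x0 x1 x2 a = gad g a u := by simp [ext3, h0, h1, h2']
    have e2 : ext3 g u x0 x1 x2 (a + 1) = gad g (a + 1) u := by
      simp only [ext3]
      rw [if_neg (by omega), if_neg (by omega), if_neg (by omega)]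
    rw [e1, e2]
    left
    rw [k1_gad _ _ _ (by omega), k1_gad _ _ _ (by omega), if_neg h0, if_neg (by omega)]
    omega

lemma mkCopy (B : R h → R h → Prop) (i t : Fin (2 ^ h))
    (hB : ∀ r c, ¬ (isMain r ∧ isMain c) → lab r c = (i, t) → (B r c ↔ M r c))
    (g : Fin h × Fin 3) (x0 x1 x2 y0 y1 y2 : R h)
    (r0 : rowRole g 0 x0) (r1 : rowRole g 1 x1) (r2 : rowRole g 2 x2)
    (c0 : colRole g 0 y0) (c1 : colRole g 1 y1) (c2 : colRole g 2 y2)
    (gr0 : goodR i t x0) (gr1 : goodR i t x1) (gr2 : goodR i t x2)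
    (gc0 : goodC i t y0) (gc1 : goodC i t y1) (gc2 : goodC i t y2)
    (x01 : lt x0 x1) (x12 : lt x1 x2) (kx : k1 x2 ≤ 3)
    (y01 : lt y0 y1) (y12 : lt y1 y2) (ky : k1 y2 ≤ 3)
    (hm : ∀ a b, a < 3 → b < 3 → isMain (ext3 g (i + t) x0 x1 x2 a) →
      isMain (ext3 g t y0 y1 y2 b) →
        (B (ext3 g (i + t) x0 x1 x2 a) (ext3 g t y0 y1 y2 b) ↔ Hp a b)) :
    IsCopy B (ext3 g (i + t) x0 x1 x2) (ext3 g t y0 y1 y2) := by
  refine ⟨ext3_lt g _ x01 x12 kx, ext3_lt g _ y01 y12 ky, fun a b ha hb => ?_⟩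
  have hr : rowRole g a (ext3 g (i + t) x0 x1 x2 a) ∧ goodR i t (ext3 g (i + t) x0 x1 x2 a) ∧
      (isMain (ext3 g (i + t) x0 x1 x2 a) → a < 3) := by
    unfold ext3
    split_ifs with h0 h1 h2
    · subst h0; exact ⟨r0, gr0, fun _ => by norm_num⟩
    · subst h1; exact ⟨r1, gr1, fun _ => by norm_num⟩
    · subst h2; exact ⟨r2, gr2, fun _ => by norm_num⟩
    · exact ⟨rowRole_gad g a _ ha (Or.inl (by omega)), rfl, fun hh => hh.elim⟩
  have hc : colRole g b (ext3 g t y0 y1 y2 b) ∧ goodC i t (ext3 g t y0 y1 y2 b) ∧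
      (isMain (ext3 g t y0 y1 y2 b) → b < 3) := by
    unfold ext3
    split_ifs with h0 h1 h2
    · subst h0; exact ⟨c0, gc0, fun _ => by norm_num⟩
    · subst h1; exact ⟨c1, gc1, fun _ => by norm_num⟩
    · subst h2; exact ⟨c2, gc2, fun _ => by norm_num⟩
    · exact ⟨colRole_gad g b _ hb (Or.inl (by omega)), rfl, fun hh => hh.elim⟩
  by_cases hmm : isMain (ext3 g (i + t) x0 x1 x2 a) ∧ isMain (ext3 g t y0 y1 y2 b)
  · exact hm a b (hr.2.2 hmm.1) (hc.2.2 hmm.2) hmm.1 hmm.2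
  · rw [hB _ _ hmm (lab_eq hr.2.1 hc.2.1 hmm)]
    obtain ⟨hr1, -, -⟩ := hr
    obtain ⟨hc1, -, -⟩ := hc
    generalize ext3 g (i + t) x0 x1 x2 a = r at *
    generalize ext3 g t y0 y1 y2 b = c at *
    rcases r with x | x
    · rcases c with y | y
      · exact absurd ⟨trivial, trivial⟩ hmm
      · exact M_iff_right hr1 hc1
    · exact M_iff_left hr1 hc1

lemma lt_gad0_main (g : Fin h × Fin 3) (u : Fin (2 ^ h)) (x : Fin (2 ^ h) × Fin h × Fin 2) :
    lt (gad g 0 u) (.inl x) := by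
  left
  rw [k1_gad _ _ _ (by norm_num)]
  simp [k1]

lemma lt_main_gad (g : Fin h × Fin 3) (u : Fin (2 ^ h)) (x : Fin (2 ^ h) × Fin h × Fin 2)
    (a : ℕ) (h0 : a ≠ 0) (ha : a < 66) : lt (.inl x) (gad g a u) := by
  left
  rw [k1_gad _ _ _ ha, if_neg h0]
  simp only [k1]
  omega

lemma lt_nest0 (i : Fin (2 ^ h)) (k k' : Fin h) (s : Fin 2) (hk : (k' : ℕ) = k + 1) :
    lt (h := h) (.inl (i, k', 0)) (.inl (i, k, s)) := by
  right
  refine ⟨rfl, Or.inr ⟨rfl, ?_⟩⟩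
  simp only [k3, Fin.val_zero, ↓reduceIte]
  split_ifs <;> omega

lemma lt_nest1 (i : Fin (2 ^ h)) (k k' : Fin h) (s : Fin 2) (hk : (k' : ℕ) = k + 1) :
    lt (h := h) (.inl (i, k, s)) (.inl (i, k', 1)) := by
  right
  refine ⟨rfl, Or.inr ⟨rfl, ?_⟩⟩
  simp only [k3, Fin.val_one, one_ne_zero, ↓reduceIte]
  split_ifs <;> omega

lemma ext3_0 (g : Fin h × Fin 3) (u : Fin (2 ^ h)) (x0 x1 x2 : R h) :
    ext3 g u x0 x1 x2 0 = x0 := by simp [ext3]
lemma ext3_1 (g : Fin h × Fin 3) (u : Fin (2 ^ h)) (x0 x1 x2 : R h) :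
    ext3 g u x0 x1 x2 1 = x1 := by simp [ext3]
lemma ext3_2 (g : Fin h × Fin 3) (u : Fin (2 ^ h)) (x0 x1 x2 : R h) :
    ext3 g u x0 x1 x2 2 = x2 := by simp [ext3]

lemma not_main_gad (g : Fin h × Fin 3) (a : ℕ) (u : Fin (2 ^ h)) : ¬ isMain (gad g a u) :=
  fun hh => hh

theorem far (hh : 1 ≤ h) (B : R h → R h → Prop) (hfree : ∀ ρ κ, ¬ IsCopy B ρ κ)
    (i t : Fin (2 ^ h)) : ∃ r c, lab r c = (i, t) ∧ ¬ (B r c ↔ M r c) := by
  by_contra hcon
  have hB : ∀ r c, ¬ (isMain r ∧ isMain c) → lab r c = (i, t) → (B r c ↔ M r c) := by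
    intro r c _ hl
    by_contra hn
    exact hcon ⟨r, c, hl, hn⟩
  -- the top row step
  have top : ∀ k : Fin h, (k : ℕ) + 1 = h → ∀ s s', B (.inl (i, k, s)) (.inl (i, k, s')) := by
    intro k hk s s'
    by_contra hn
    let g : Fin h × Fin 3 := (k, ⟨I k i % 2, by omega⟩)
    have hq : (g.2 : ℕ) < 2 := Nat.mod_lt _ (by norm_num)
    refine hfree _ _ (mkCopy B i t hB g (gad g 0 (i + t)) (.inl (i, k, s)) (gad g 2 (i + t))
      (gad g 0 t) (.inl (i, k, s')) (gad g 2 t)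
      (rowRole_gad _ _ _ (by norm_num) (Or.inr ⟨by norm_num, Or.inl hq⟩))
      (Or.inl ⟨hq, rfl, rfl, rfl⟩)
      (rowRole_gad _ _ _ (by norm_num) (Or.inr ⟨by norm_num, Or.inl hq⟩))
      (colRole_gad _ _ _ (by norm_num) (Or.inr (Or.inr (Or.inr ⟨hq, hk, by norm_num⟩))))
      (Or.inl ⟨hq, rfl, rfl, rfl⟩)
      (colRole_gad _ _ _ (by norm_num) (Or.inr (Or.inr (Or.inr ⟨hq, hk, by norm_num⟩))))
      rfl rfl rfl rfl rfl rfl
      (lt_gad0_main _ _ _) (lt_main_gad _ _ _ _ (by norm_num) (by norm_num))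
      (by rw [k1_gad _ _ _ (by norm_num)]; norm_num)
      (lt_gad0_main _ _ _) (lt_main_gad _ _ _ _ (by norm_num) (by norm_num))
      (by rw [k1_gad _ _ _ (by norm_num)]; norm_num) ?_)
    intro a b ha hb h1 h2
    interval_cases a <;> interval_cases b <;>
      simp only [ext3_0, ext3_1, ext3_2, not_main_gad] at h1 h2 ⊢
    simp [Hp, hn]
  -- the column step
  have colstep : ∀ k k' : Fin h, (k' : ℕ) = k + 1 →
      (∀ s s', B (.inl (i, k', s)) (.inl (i, k', s'))) →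
      ∀ s s', B (.inl (i, k, s)) (.inl (i, k', s')) := by
    intro k k' hk hY s s'
    by_contra hn
    let g : Fin h × Fin 3 := (k', 2)
    have hq : (g.2 : ℕ) = 2 := rfl
    have hk0 : (g.1 : ℕ) ≠ 0 := by simp only [g]; omega
    refine hfree _ _ (mkCopy B i t hB g (.inl (i, k', 0)) (.inl (i, k, s)) (.inl (i, k', 1))
      (gad g 0 t) (.inl (i, k', s')) (gad g 2 t)
      (Or.inr (Or.inr (Or.inl ⟨hq, hk0, rfl, rfl⟩)))
      (Or.inr (Or.inr (Or.inr ⟨hq, hk.symm, rfl⟩)))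
      (Or.inr (Or.inr (Or.inl ⟨hq, hk0, rfl, rfl⟩)))
      (colRole_gad _ _ _ (by norm_num) (Or.inr (Or.inr (Or.inl ⟨hq, hk0, by norm_num⟩))))
      (Or.inr (Or.inr (Or.inr ⟨hq, hk0, rfl, rfl⟩)))
      (colRole_gad _ _ _ (by norm_num) (Or.inr (Or.inr (Or.inl ⟨hq, hk0, by norm_num⟩))))
      rfl rfl rfl rfl rfl rfl
      (lt_nest0 _ _ _ _ hk) (lt_nest1 _ _ _ _ hk)
      (by simp [k1])
      (lt_gad0_main _ _ _) (lt_main_gad _ _ _ _ (by norm_num) (by norm_num))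
      (by rw [k1_gad _ _ _ (by norm_num)]; norm_num) ?_)
    intro a b ha hb h1 h2
    interval_cases a <;> interval_cases b <;>
      simp only [ext3_0, ext3_1, ext3_2, not_main_gad] at h1 h2 ⊢
    · simp [Hp, hY]
    · simp [Hp, hn]
    · simp [Hp, hY]
  -- the row step
  have rowstep : ∀ k k' : Fin h, (k' : ℕ) = k + 1 →
      (∀ s s', B (.inl (i, k, s)) (.inl (i, k', s'))) →
      ∀ s s', B (.inl (i, k, s)) (.inl (i, k, s')) := by
    intro k k' hk hX s s'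
    by_contra hn
    let g : Fin h × Fin 3 := (k, ⟨I k i % 2, by omega⟩)
    have hq : (g.2 : ℕ) < 2 := Nat.mod_lt _ (by norm_num)
    refine hfree _ _ (mkCopy B i t hB g (gad g 0 (i + t)) (.inl (i, k, s)) (gad g 2 (i + t))
      (.inl (i, k', 0)) (.inl (i, k, s')) (.inl (i, k', 1))
      (rowRole_gad _ _ _ (by norm_num) (Or.inr ⟨by norm_num, Or.inl hq⟩))
      (Or.inl ⟨hq, rfl, rfl, rfl⟩)
      (rowRole_gad _ _ _ (by norm_num) (Or.inr ⟨by norm_num, Or.inl hq⟩))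
      (Or.inr (Or.inl ⟨hq, hk, rfl⟩))
      (Or.inl ⟨hq, rfl, rfl, rfl⟩)
      (Or.inr (Or.inl ⟨hq, hk, rfl⟩))
      rfl rfl rfl rfl rfl rfl
      (lt_gad0_main _ _ _) (lt_main_gad _ _ _ _ (by norm_num) (by norm_num))
      (by rw [k1_gad _ _ _ (by norm_num)]; norm_num)
      (lt_nest0 _ _ _ _ hk) (lt_nest1 _ _ _ _ hk)
      (by simp [k1]) ?_)
    intro a b ha hb h1 h2
    interval_cases a <;> interval_cases b <;>
      simp only [ext3_0, ext3_1, ext3_2, not_main_gad] at h1 h2 ⊢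
    · simp [Hp, hX]
    · simp [Hp, hn]
    · simp [Hp, hX]
  have allY : ∀ d : ℕ, ∀ k : Fin h, (k : ℕ) + d + 1 = h →
      ∀ s s', B (.inl (i, k, s)) (.inl (i, k, s')) := by
    intro d
    induction d with
    | zero => intro k hk; exact top k hk
    | succ d ih =>
      intro k hk
      let k' : Fin h := ⟨k + 1, by omega⟩
      exact rowstep k k' rfl (colstep k k' rfl (ih k' (by simp only [k']; omega)))
  let k0 : Fin h := ⟨0, hh⟩
  have hY := allY (h - 1) k0 (by simp only [k0]; omega)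
  let g : Fin h × Fin 3 := (k0, 2)
  have hq : (g.2 : ℕ) = 2 := rfl
  have hk0 : (g.1 : ℕ) = 0 := rfl
  refine hfree _ _ (mkCopy B i t hB g (gad g 0 (i + t)) (.inl (i, k0, 0)) (gad g 2 (i + t))
    (.inl (i, k0, 0)) (gad g 1 t) (gad g 2 t)
    (rowRole_gad _ _ _ (by norm_num) (Or.inr ⟨by norm_num, Or.inr hk0⟩))
    (Or.inr (Or.inl ⟨hq, hk0, rfl, rfl, rfl⟩))
    (rowRole_gad _ _ _ (by norm_num) (Or.inr ⟨by norm_num, Or.inr hk0⟩))
    (Or.inr (Or.inr (Or.inl ⟨hq, hk0, rfl, rfl, rfl⟩)))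
    (colRole_gad _ _ _ (by norm_num) (Or.inr (Or.inl ⟨hq, hk0, by norm_num⟩)))
    (colRole_gad _ _ _ (by norm_num) (Or.inr (Or.inl ⟨hq, hk0, by norm_num⟩)))
    rfl rfl rfl rfl rfl rfl
    (lt_gad0_main _ _ _) (lt_main_gad _ _ _ _ (by norm_num) (by norm_num))
    (by rw [k1_gad _ _ _ (by norm_num)]; norm_num)
    (lt_main_gad _ _ _ _ (by norm_num) (by norm_num))
    (Or.inl (by rw [k1_gad _ _ _ (by norm_num), k1_gad _ _ _ (by norm_num)]; norm_num))
    (by rw [k1_gad _ _ _ (by norm_num)]; norm_num) ?_)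
  intro a b ha hb h1 h2
  interval_cases a <;> interval_cases b <;>
    simp only [ext3_0, ext3_1, ext3_2, not_main_gad] at h1 h2 ⊢
  simp [Hp, hY]

end Crest.Agent.R47
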