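import Crest.Agent.R47.Rigid
import Crest.Agent.R47.Far
import Crest.Prelude.Def_OrderedMatrix

set_option autoImplicit false

namespace Crest.Agent.R47

open Classical in
/-- the 66×66 pattern -/
noncomputable def Hb (a b : Fin 66) : Bool := decide (Hp a b)

lemma Hb_iff (a b : Fin 66) : Hb a b = true ↔ Hp a b := by simp [Hb]

variable {h n : ℕ}

open Classical in
/-- the host matrix transported to `Fin n`, padded by zeros -/
noncomputable def host (e : R h → Fin n) (x y : Fin n) : Bool :=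
  decide (∃ r c, e r = x ∧ e c = y ∧ M r c)

lemma emb_inj {e : R h → Fin n} (he : ∀ r r', e r < e r' ↔ key r < key r') :
    Function.Injective e := by
  intro r r' hr
  apply key_inj
  rcases lt_trichotomy (key r) (key r') with h1 | h1 | h1
  · exact absurd ((he _ _).2 h1) (by rw [hr]; exact lt_irrefl _)
  · exact h1
  · exact absurd ((he _ _).2 h1) (by rw [hr]; exact lt_irrefl _)

lemma host_apply {e : R h → Fin n} (hinj : Function.Injective e) (r c : R h) :
    host e (e r) (e c) = true ↔ M r c := by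
  simp only [host, decide_eq_true_eq]
  constructor
  · rintro ⟨r', c', h1, h2, h3⟩
    rwa [hinj h1, hinj h2] at h3
  · intro h3
    exact ⟨r, c, rfl, rfl, h3⟩

lemma row_has_one (a : Fin 66) : ∃ b : Fin 66, Hp a b := by
  have ha := a.2
  by_cases h3 : (a : ℕ) < 3
  · exact ⟨⟨a + 3, by omega⟩, Or.inr (Or.inl ⟨h3, rfl⟩)⟩
  · by_cases h4 : (a : ℕ) = 4
    · exact ⟨⟨5, by omega⟩, by unfold Hp; simp only; omega⟩
    · exact ⟨⟨4, by omega⟩, by unfold Hp; simp only; omega⟩

lemma col_has_one (b : Fin 66) : ∃ a : Fin 66, Hp a b := by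
  have hb := b.2
  by_cases h3 : (b : ℕ) < 3
  · exact ⟨⟨b + 3, by omega⟩, Or.inr (Or.inr (Or.inl ⟨h3, rfl⟩))⟩
  · by_cases h4 : (b : ℕ) = 4
    · exact ⟨⟨5, by omega⟩, by unfold Hp; simp only; omega⟩
    · exact ⟨⟨4, by omega⟩, by unfold Hp; simp only; omega⟩

lemma copy_diag {e : R h → Fin n} (he : ∀ r r', e r < e r' ↔ key r < key r') (hh : 1 ≤ h)
    (x y : Fin 66 → Fin n) (hx : StrictMono x) (hy : StrictMono y)
    (hxy : ∀ a b, host e (x a) (y b) = Hb a b) :
    ∃ i : Fin (2 ^ h), x 1 = e (.inl (i, ⟨0, hh⟩, 0)) ∧ y 0 = e (.inl (i, ⟨0, hh⟩, 0)) := by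
  have hinj := emb_inj he
  have h1 : ∀ a, ∃ r, e r = x a := by
    intro a
    obtain ⟨b, hb⟩ := row_has_one a
    have := hxy a b
    rw [(Hb_iff a b).2 hb] at this
    simp only [host, decide_eq_true_eq] at this
    obtain ⟨r, c, h1, -, -⟩ := this
    exact ⟨r, h1⟩
  have h2 : ∀ b, ∃ c, e c = y b := by
    intro b
    obtain ⟨a, ha⟩ := col_has_one b
    have := hxy a b
    rw [(Hb_iff a b).2 ha] at this
    simp only [host, decide_eq_true_eq] at this
    obtain ⟨r, c, -, h1, -⟩ := this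
    exact ⟨c, h1⟩
  choose ρ hρ using h1
  choose κ hκ using h2
  let φ : ℕ → Fin 66 := fun a => ⟨a % 66, Nat.mod_lt _ (by norm_num)⟩
  have hφ : ∀ a, a < 66 → ((φ a : Fin 66) : ℕ) = a := fun a ha => Nat.mod_eq_of_lt ha
  have hc : IsCopy M (fun a => ρ (φ a)) (fun a => κ (φ a)) := by
    refine ⟨fun a ha => ?_, fun a ha => ?_, fun a b ha hb => ?_⟩
    · rw [← key_lt, ← he, hρ, hρ]
      apply hx
      rw [Fin.lt_def, hφ a (by omega), hφ (a + 1) (by omega)]
      omega
    · rw [← key_lt, ← he, hκ, hκ]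
      apply hy
      rw [Fin.lt_def, hφ a (by omega), hφ (a + 1) (by omega)]
      omega
    · rw [← host_apply hinj, hρ, hκ, hxy, Hb_iff, hφ a ha, hφ b hb]
  obtain ⟨i, k, hk, e1, e2⟩ := rigid hc
  have hk' : k = ⟨0, hh⟩ := Fin.ext hk
  subst hk'
  refine ⟨i, ?_, ?_⟩
  · rw [← e1, ← hρ]; rfl
  · rw [← e2, ← hκ]; rfl

lemma count_le {e : R h → Fin n} (he : ∀ r r', e r < e r' ↔ key r < key r') (hh : 1 ≤ h) :
    Crest.CombinatoricsR.OrderedMatrix.orderedCopyCount Hb (host e) ≤ 2 ^ h * n ^ 130 := by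
  unfold Crest.CombinatoricsR.OrderedMatrix.orderedCopyCount
  have hex : ∀ rc : {rc : (Fin 66 → Fin n) × (Fin 66 → Fin n) //
      StrictMono rc.1 ∧ StrictMono rc.2 ∧ ∀ i j : Fin 66, host e (rc.1 i) (rc.2 j) = Hb i j},
      ∃ i : Fin (2 ^ h), rc.1.1 1 = e (.inl (i, ⟨0, hh⟩, 0)) ∧
        rc.1.2 0 = e (.inl (i, ⟨0, hh⟩, 0)) :=
    fun rc => copy_diag he hh rc.1.1 rc.1.2 rc.2.1 rc.2.2.1 rc.2.2.2
  choose f hf using hex
  have hinj : Function.Injective (fun rc => ((f rc, fun a : Fin 65 => rc.1.1 ((1 : Fin 66).succAbove a),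
      fun b : Fin 65 => rc.1.2 ((0 : Fin 66).succAbove b)) :
        Fin (2 ^ h) × (Fin 65 → Fin n) × (Fin 65 → Fin n))) := by
    intro rc rc' hrc
    simp only [Prod.mk.injEq] at hrc
    obtain ⟨h1, h2, h3⟩ := hrc
    apply Subtype.ext
    apply Prod.ext
    · funext a
      rcases Fin.eq_self_or_eq_succAbove (1 : Fin 66) a with rfl | ⟨a', rfl⟩
      · rw [(hf rc).1, (hf rc').1, h1]
      · exact congrFun h2 a'
    · funext a
      rcases Fin.eq_self_or_eq_succAbove (0 : Fin 66) a with rfl | ⟨a', rfl⟩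
      · rw [(hf rc).2, (hf rc').2, h1]
      · exact congrFun h3 a'
  have := Fintype.card_le_of_injective _ hinj
  refine this.trans (le_of_eq ?_)
  simp only [Fintype.card_prod, Fintype.card_fun, Fintype.card_fin]
  ring

lemma far_le {e : R h → Fin n} (he : ∀ r r', e r < e r' ↔ key r < key r') (hh : 1 ≤ h)
    (B : Fin n → Fin n → Bool)
    (hB : Crest.CombinatoricsR.OrderedMatrix.orderedCopyCount Hb B = 0) :
    2 ^ h * 2 ^ h ≤ (Finset.univ.filter (fun rc : Fin n × Fin n =>
      host e rc.1 rc.2 ≠ B rc.1 rc.2)).card := by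
  have hinj := emb_inj he
  have hfree : ∀ ρ κ, ¬ IsCopy (fun r c : R h => B (e r) (e c) = true) ρ κ := by
    intro ρ κ hc
    unfold Crest.CombinatoricsR.OrderedMatrix.orderedCopyCount at hB
    rw [Fintype.card_eq_zero_iff] at hB
    refine hB.false ⟨(fun a => e (ρ a), fun b => e (κ b)), ?_, ?_, fun a b => ?_⟩
    · rw [Fin.strictMono_iff_lt_succ]
      intro a
      rw [he, key_lt]
      exact hc.1 a a.2
    · rw [Fin.strictMono_iff_lt_succ]
      intro a
      rw [he, key_lt]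
      exact hc.2.1 a a.2
    · have := hc.2.2 a b a.2 b.2
      rw [← Hb_iff] at this
      exact Bool.eq_iff_iff.2 this
  have hex := fun p : Fin (2 ^ h) × Fin (2 ^ h) => far hh _ hfree p.1 p.2
  choose r c hl hrc using hex
  have : (Finset.univ : Finset (Fin (2 ^ h) × Fin (2 ^ h))).card ≤
      (Finset.univ.filter (fun rc : Fin n × Fin n =>
      host e rc.1 rc.2 ≠ B rc.1 rc.2)).card := by
    refine Finset.card_le_card_of_injOn (fun p => (e (r p), e (c p))) ?_ ?_
    · intro p _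
      simp only [Finset.coe_filter, Finset.mem_univ, true_and, Set.mem_ofPred_eq]
      intro heq
      apply hrc p
      rw [← heq, host_apply hinj]
    · intro p _ p' _ hp
      simp only [Prod.mk.injEq] at hp
      have e1 := hl p
      have e2 := hl p'
      rw [hinj hp.1, hinj hp.2, e2] at e1
      exact e1.symm
  simpa using this

end Crest.Agent.R47
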