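import Crest.Agent.R47.Defs

set_option autoImplicit false

namespace Crest.Agent.R47

variable {h : ℕ}

/-- slot of a column seen from a main row of type `k` -/
def slotC (k : ℕ) : R h → ℕ
  | .inl (_, k', s') => ((k' : ℕ) - k) * 2 + s'
  | .inr (g, b, _) => 4 + ((((g.1 : ℕ) - k) * 3 + g.2) * 6 + b)

/-- slot of a row seen from a main column of type `k` -/
def slotR (k : ℕ) : R h → ℕ
  | .inl (i, k', s') => ((k - (k' : ℕ)) * 2 + s') * 2 + I k' i % 2
  | .inr (g, a, _) => 8 + (((k - (g.1 : ℕ)) * 3 + g.2) * 6 + a)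

lemma main_row_gad {x : Fin (2 ^ h) × Fin h × Fin 2} {g : Fin h × Fin 3} {b : Fin 66}
    {t : Fin (2 ^ h)} (hM : M (.inl x) (.inr (g, b, t))) :
    ((g.1 : ℕ) = x.2.1 ∨ (g.1 : ℕ) = x.2.1 + 1) ∧ (b : ℕ) < 6 := by
  rw [M_inr_right] at hM
  obtain ⟨g', a, b', h1, h2, h3⟩ := hM
  obtain ⟨i, k, s⟩ := x
  simp only [colRole] at h2
  obtain ⟨rfl, rfl, -⟩ := h2
  have hs := s.2
  simp only [rowRole, mrr] at h1
  simp only [Hp] at h3
  simp only
  omega

lemma main_col_gad {x : Fin (2 ^ h) × Fin h × Fin 2} {g : Fin h × Fin 3} {a : Fin 66}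
    {t : Fin (2 ^ h)} (hM : M (.inr (g, a, t)) (.inl x)) :
    ((g.1 : ℕ) = x.2.1 ∨ (g.1 : ℕ) + 1 = x.2.1) ∧ (a : ℕ) < 6 := by
  rw [M_inr_left] at hM
  obtain ⟨g', a', b', h1, h2, h3⟩ := hM
  obtain ⟨i, k, s⟩ := x
  simp only [rowRole] at h1
  obtain ⟨rfl, rfl, -⟩ := h1
  have hs := s.2
  simp only [colRole, mcr] at h2
  simp only [Hp] at h3
  simp only
  omega

lemma slotC_lt {x : Fin (2 ^ h) × Fin h × Fin 2} {c : R h} (hM : M (.inl x) c) :
    slotC x.2.1 c < 40 := by
  rcases c with ⟨j, k', s'⟩ | ⟨g, b, t⟩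
  · have hs := s'.2
    rw [M_inl] at hM
    simp only [X] at hM
    simp only [slotC]
    omega
  · have := main_row_gad hM
    have hq := g.2.2
    simp only [slotC]
    omega

lemma slotR_lt {x : Fin (2 ^ h) × Fin h × Fin 2} {r : R h} (hM : M r (.inl x)) :
    slotR x.2.1 r < 44 := by
  rcases r with ⟨j, k', s'⟩ | ⟨g, b, t⟩
  · have hs := s'.2
    rw [M_inl] at hM
    simp only [X] at hM
    simp only [slotR]
    omega
  · have := main_col_gad hM
    have hq := g.2.2
    simp only [slotR]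
    omega

lemma twinC_gad (g : Fin h × Fin 3) (b : Fin 66) (t t' : Fin (2 ^ h)) (r : R h) :
    M r (.inr (g, b, t)) ↔ M r (.inr (g, b, t')) := by
  rw [M_inr_right, M_inr_right]
  rfl

lemma twinR_gad (g : Fin h × Fin 3) (b : Fin 66) (t t' : Fin (2 ^ h)) (c : R h) :
    M (.inr (g, b, t)) c ↔ M (.inr (g, b, t')) c := by
  rw [M_inr_left, M_inr_left]
  rfl

lemma twinC_main (j j' : Fin (2 ^ h)) (k : Fin h) (s : Fin 2) (hI : I k j = I k j') (r : R h) :
    M r (.inl (j, k, s)) ↔ M r (.inl (j', k, s)) := by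
  rcases r with x | x
  · rw [M_inl, M_inl]
    simp only [X, hI]
  · rw [M_inr_left, M_inr_left]
    simp only [colRole, mcr, hI]

lemma twinR_main (i i' : Fin (2 ^ h)) (k : Fin h) (s : Fin 2) (hI : I k i = I k i') (c : R h) :
    M (.inl (i, k, s)) c ↔ M (.inl (i', k, s)) c := by
  rcases c with ⟨j, k', s'⟩ | x
  · rw [M_inl, M_inl]
    simp only [X]
    have h2 : I (k + 1) i = I (k + 1) i' := by rw [I_succ, I_succ, hI]
    constructor
    · rintro ⟨h1 | h1, h3⟩
      · exact ⟨Or.inl h1, by rw [h1] at h3 ⊢; rw [← hI, h3]⟩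
      · exact ⟨Or.inr h1, by rw [h1] at h3 ⊢; rw [← h2, h3]⟩
    · rintro ⟨h1 | h1, h3⟩
      · exact ⟨Or.inl h1, by rw [h1] at h3 ⊢; rw [hI, h3]⟩
      · exact ⟨Or.inr h1, by rw [h1] at h3 ⊢; rw [h2, h3]⟩
  · rw [M_inr_right, M_inr_right]
    simp only [rowRole, mrr, hI]

lemma twinC_of_slot {x : Fin (2 ^ h) × Fin h × Fin 2} {c c' : R h} (hM : M (.inl x) c)
    (hM' : M (.inl x) c') (hs : slotC x.2.1 c = slotC x.2.1 c') (r : R h) : M r c ↔ M r c' := by
  rcases c with ⟨j, k', s'⟩ | ⟨g, b, t⟩ <;> rcases c' with ⟨j', k'', s''⟩ | ⟨g', b', t'⟩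
  · have h1 := s'.2
    have h2 := s''.2
    rw [M_inl] at hM hM'
    simp only [X] at hM hM'
    simp only [slotC] at hs
    have e1 : (k' : ℕ) = k'' := by omega
    have e2 : (s' : ℕ) = s'' := by omega
    obtain rfl := Fin.ext e1
    obtain rfl := Fin.ext e2
    exact twinC_main _ _ _ _ (hM.2.symm.trans hM'.2) r
  · have h1 := s'.2
    rw [M_inl] at hM
    simp only [X] at hM
    simp only [slotC] at hs
    omega
  · have h1 := s''.2
    rw [M_inl] at hM'
    simp only [X] at hM'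
    simp only [slotC] at hs
    omega
  · have h1 := main_row_gad hM
    have h2 := main_row_gad hM'
    have hq := g.2.2
    have hq' := g'.2.2
    simp only [slotC] at hs
    have e1 : (g.1 : ℕ) = g'.1 := by omega
    have e2 : (g.2 : ℕ) = g'.2 := by omega
    have e3 : (b : ℕ) = b' := by omega
    obtain rfl : g = g' := Prod.ext (Fin.ext e1) (Fin.ext e2)
    obtain rfl := Fin.ext e3
    exact twinC_gad _ _ _ _ r

lemma twinR_of_slot {x : Fin (2 ^ h) × Fin h × Fin 2} {r r' : R h} (hM : M r (.inl x))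
    (hM' : M r' (.inl x)) (hs : slotR x.2.1 r = slotR x.2.1 r') (c : R h) : M r c ↔ M r' c := by
  rcases r with ⟨j, k', s'⟩ | ⟨g, b, t⟩ <;> rcases r' with ⟨j', k'', s''⟩ | ⟨g', b', t'⟩
  · have h1 := s'.2
    have h2 := s''.2
    rw [M_inl] at hM hM'
    simp only [X] at hM hM'
    simp only [slotR] at hs
    have e1 : (k' : ℕ) = k'' := by omega
    have e2 : (s' : ℕ) = s'' := by omega
    obtain rfl := Fin.ext e1
    obtain rfl := Fin.ext e2
    refine twinR_main _ _ _ _ ?_ c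
    have h3 : I x.2.1 j = I x.2.1 j' := hM.2.trans hM'.2.symm
    rcases hM.1 with h4 | h4
    · rw [h4] at h3
      exact h3
    · rw [h4, I_succ, I_succ] at h3
      omega
  · have h1 := s'.2
    rw [M_inl] at hM
    simp only [X] at hM
    simp only [slotR] at hs
    omega
  · have h1 := s''.2
    rw [M_inl] at hM'
    simp only [X] at hM'
    simp only [slotR] at hs
    omega
  · have h1 := main_col_gad hM
    have h2 := main_col_gad hM'
    have hq := g.2.2
    have hq' := g'.2.2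
    simp only [slotR] at hs
    have e1 : (g.1 : ℕ) = g'.1 := by omega
    have e2 : (g.2 : ℕ) = g'.2 := by omega
    have e3 : (b : ℕ) = b' := by omega
    obtain rfl : g = g' := Prod.ext (Fin.ext e1) (Fin.ext e2)
    obtain rfl := Fin.ext e3
    exact twinR_gad _ _ _ _ c

lemma pigeon (a : ℕ) (f : ℕ → ℕ)
    (hf : ∀ b, 3 ≤ b → b < 66 → b ≠ a → f b < 44) :
    ∃ b b', 3 ≤ b ∧ b < 66 ∧ 3 ≤ b' ∧ b' < 66 ∧ b ≠ a ∧ b' ≠ a ∧ b ≠ b' ∧ f b = f b' := by
  have hcard : (Finset.range 44).card < ((Finset.Ico 3 66).erase a).card := by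
    have := Finset.pred_card_le_card_erase (s := Finset.Ico 3 66) (a := a)
    simp only [Nat.card_Ico, Finset.card_range] at this ⊢
    omega
  obtain ⟨b, hb, b', hb', hne, he⟩ := Finset.exists_ne_map_eq_of_card_lt_of_maps_to hcard (f := f)
    (fun b hb => by
      simp only [Finset.coe_erase, Finset.coe_Ico, Set.mem_sdiff, Set.mem_Ico,
        Set.mem_singleton_iff] at hb
      simp only [Finset.coe_range, Set.mem_Iio]
      exact hf b hb.1.1 hb.1.2 hb.2)
  simp only [Finset.mem_erase, Finset.mem_Ico] at hb hb'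
  exact ⟨b, b', hb.2.1, hb.2.2, hb'.2.1, hb'.2.2, hb.1, hb'.1, hne, he⟩

variable {ρ κ : ℕ → R h}

lemma core_row_gad (hc : IsCopy M ρ κ) {a : ℕ} (h3 : 3 ≤ a) (ha : a < 66) :
    ∃ y, ρ a = .inr y := by
  rcases hρ : ρ a with x | y
  · exfalso
    have hM : ∀ b, 3 ≤ b → b < 66 → b ≠ a → M (.inl x) (κ b) := by
      intro b hb hb' hne
      rw [← hρ, hc.2.2 a b ha hb']
      simp only [Hp]
      omega
    obtain ⟨b, b', h1, h2, h1', h2', h4, h5, h6, h7⟩ := pigeon a (fun b => slotC x.2.1 (κ b))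
      (fun b hb hb' hne => (slotC_lt (hM b hb hb' hne)).trans (by norm_num))
    have := twinC_of_slot (hM b h1 h2 h4) (hM b' h1' h2' h5) h7 (ρ b)
    rw [hc.2.2 b b h2 h2, hc.2.2 b b' h2 h2'] at this
    simp only [Hp] at this
    omega
  · exact ⟨y, rfl⟩

lemma core_col_gad (hc : IsCopy M ρ κ) {b : ℕ} (h3 : 3 ≤ b) (hb : b < 66) :
    ∃ y, κ b = .inr y := by
  rcases hκ : κ b with x | y
  · exfalso
    have hM : ∀ a, 3 ≤ a → a < 66 → a ≠ b → M (ρ a) (.inl x) := by
      intro a ha ha' hne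
      rw [← hκ, hc.2.2 a b ha' hb]
      simp only [Hp]
      omega
    obtain ⟨a, a', h1, h2, h1', h2', h4, h5, h6, h7⟩ := pigeon b (fun a => slotR x.2.1 (ρ a))
      (fun a ha ha' hne => slotR_lt (hM a ha ha' hne))
    have := twinR_of_slot (hM a h1 h2 h4) (hM a' h1' h2' h5) h7 (κ a)
    rw [hc.2.2 a a h2 h2, hc.2.2 a' a h2' h2] at this
    simp only [Hp] at this
    omega
  · exact ⟨y, rfl⟩

lemma M_gad_gad {g g' : Fin h × Fin 3} {a b : Fin 66} {t t' : Fin (2 ^ h)}
    (hM : M (.inr (g, a, t)) (.inr (g', b, t'))) : g = g' ∧ Hp a b := by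
  rw [M_inr_left] at hM
  obtain ⟨g'', a', b', h1, h2, h3⟩ := hM
  simp only [rowRole] at h1
  simp only [colRole] at h2
  obtain ⟨rfl, rfl, -⟩ := h1
  obtain ⟨rfl, rfl, -⟩ := h2
  exact ⟨rfl, h3⟩

lemma k1_mono {y y' : (Fin h × Fin 3) × Fin 66 × Fin (2 ^ h)}
    (hk : k1 (h := h) (.inr y) ≤ k1 (h := h) (.inr y')) : (y.2.1 : ℕ) ≤ y'.2.1 := by
  obtain ⟨g, a, t⟩ := y
  obtain ⟨g', a', t'⟩ := y'
  simp only [k1] at hk
  simp only
  split_ifs at hk <;> omega

lemma mono_aux (f : ℕ → ℕ) (hf : ∀ a, 3 ≤ a → a < 65 → f a < f (a + 1)) :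
    ∀ d a, 3 ≤ a → a + d ≤ 65 → f a + d ≤ f (a + d) := by
  intro d
  induction d with
  | zero => intro a _ _; simp
  | succ d ih =>
    intro a ha had
    have h1 := ih a ha (by omega)
    have h2 := hf (a + d) (by omega) (by omega)
    rw [show a + (d + 1) = a + d + 1 by omega]
    omega

lemma core_ident (hc : IsCopy M ρ κ) : ∃ g : Fin h × Fin 3,
    (∀ a, 3 ≤ a → a < 66 → ∃ y, ρ a = .inr y ∧ rowRole g a (.inr y)) ∧
    (∀ b, 3 ≤ b → b < 66 → ∃ y, κ b = .inr y ∧ colRole g b (.inr y)) := by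
  have hR : ∀ a, ∃ y : (Fin h × Fin 3) × Fin 66 × Fin (2 ^ h), 3 ≤ a → a < 66 → ρ a = .inr y := by
    intro a
    by_cases ha : 3 ≤ a ∧ a < 66
    · obtain ⟨y, hy⟩ := core_row_gad hc ha.1 ha.2
      exact ⟨y, fun _ _ => hy⟩
    · obtain ⟨y, -⟩ := core_row_gad hc (a := 3) le_rfl (by norm_num)
      exact ⟨y, fun h1 h2 => absurd ⟨h1, h2⟩ ha⟩
  have hC : ∀ a, ∃ y : (Fin h × Fin 3) × Fin 66 × Fin (2 ^ h), 3 ≤ a → a < 66 → κ a = .inr y := by
    intro a
    by_cases ha : 3 ≤ a ∧ a < 66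
    · obtain ⟨y, hy⟩ := core_col_gad hc ha.1 ha.2
      exact ⟨y, fun _ _ => hy⟩
    · obtain ⟨y, -⟩ := core_row_gad hc (a := 3) le_rfl (by norm_num)
      exact ⟨y, fun h1 h2 => absurd ⟨h1, h2⟩ ha⟩
  choose u hu using hR
  choose v hv using hC
  have key : ∀ a b, 3 ≤ a → a < 66 → 3 ≤ b → b < 66 → a ≠ b →
      (u a).1 = (v b).1 ∧ Hp (u a).2.1 (v b).2.1 := by
    intro a b h1 h2 h3 h4 h5
    have : M (ρ a) (κ b) := by
      rw [hc.2.2 a b h2 h4]
      simp only [Hp]
      omega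
    rw [hu a h1 h2, hv b h3 h4] at this
    exact M_gad_gad this
  have gv : ∀ b, 3 ≤ b → b < 66 → b ≠ 3 → (v b).1 = (u 3).1 := fun b h1 h2 h3 =>
    (key 3 b le_rfl (by norm_num) h1 h2 h3.symm).1.symm
  have gu : ∀ a, 3 ≤ a → a < 66 → (u a).1 = (u 3).1 := by
    intro a h1 h2
    by_cases h4 : a = 4
    · rw [(key a 5 h1 h2 (by norm_num) (by norm_num) (by omega)).1]
      exact gv 5 (by norm_num) (by norm_num) (by norm_num)
    · rw [(key a 4 h1 h2 (by norm_num) (by norm_num) (by omega)).1]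
      exact gv 4 (by norm_num) (by norm_num) (by norm_num)
  have gv' : ∀ b, 3 ≤ b → b < 66 → (v b).1 = (u 3).1 := by
    intro b h1 h2
    by_cases h3 : b = 3
    · rw [← (key 4 b (by norm_num) (by norm_num) h1 h2 (by omega)).1]
      exact gu 4 (by norm_num) (by norm_num)
    · exact gv b h1 h2 h3
  have su : ∀ a, 3 ≤ a → a < 65 → ((u a).2.1 : ℕ) < (u (a + 1)).2.1 := by
    intro a h1 h2
    have hlt := hc.1 a h2
    have e1 := hu a h1 (by omega)
    have e2 := hu (a + 1) (by omega) (by omega)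
    have hne : ((u a).2.1 : ℕ) ≠ (u (a + 1)).2.1 := by
      intro he
      have e3 : (u a).1 = (u (a + 1)).1 := by
        rw [gu a h1 (by omega), gu (a + 1) (by omega) (by omega)]
      have e4 : u (a + 1) = ((u a).1, (u a).2.1, (u (a + 1)).2.2) := by
        rw [e3, Fin.ext he]
      have := twinR_gad (u a).1 (u a).2.1 (u a).2.2 (u (a + 1)).2.2 (κ a)
      rw [← e4, ← e2] at this
      have e5 : (Sum.inr ((u a).1, (u a).2.1, (u a).2.2) : R h) = ρ a := by rw [e1]
      rw [e5, hc.2.2 a a (by omega) (by omega), hc.2.2 (a + 1) a (by omega) (by omega)] at this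
      simp only [Hp] at this
      omega
    rw [e1, e2] at hlt
    have hk : k1 (h := h) (.inr (u a)) ≤ k1 (h := h) (.inr (u (a + 1))) := by
      rcases hlt with h3 | h3
      · exact h3.le
      · exact h3.1.le
    have := k1_mono hk
    omega
  have sv : ∀ a, 3 ≤ a → a < 65 → ((v a).2.1 : ℕ) < (v (a + 1)).2.1 := by
    intro a h1 h2
    have hlt := hc.2.1 a h2
    have e1 := hv a h1 (by omega)
    have e2 := hv (a + 1) (by omega) (by omega)
    have hne : ((v a).2.1 : ℕ) ≠ (v (a + 1)).2.1 := by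
      intro he
      have e3 : (v a).1 = (v (a + 1)).1 := by
        rw [gv' a h1 (by omega), gv' (a + 1) (by omega) (by omega)]
      have e4 : v (a + 1) = ((v a).1, (v a).2.1, (v (a + 1)).2.2) := by
        rw [e3, Fin.ext he]
      have := twinC_gad (v a).1 (v a).2.1 (v a).2.2 (v (a + 1)).2.2 (ρ a)
      rw [← e4, ← e2] at this
      have e5 : (Sum.inr ((v a).1, (v a).2.1, (v a).2.2) : R h) = κ a := by rw [e1]
      rw [e5, hc.2.2 a a (by omega) (by omega), hc.2.2 a (a + 1) (by omega) (by omega)] at this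
      simp only [Hp] at this
      omega
    rw [e1, e2] at hlt
    have hk : k1 (h := h) (.inr (v a)) ≤ k1 (h := h) (.inr (v (a + 1))) := by
      rcases hlt with h3 | h3
      · exact h3.le
      · exact h3.1.le
    have := k1_mono hk
    omega
  have mu := mono_aux (fun a => ((u a).2.1 : ℕ)) su
  have mv := mono_aux (fun a => ((v a).2.1 : ℕ)) sv
  have u65 : 62 ≤ ((u 65).2.1 : ℕ) := by
    have := mu 62 3 le_rfl le_rfl
    rw [show 3 + 62 = 65 by norm_num] at this
    omega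
  have v65 : 62 ≤ ((v 65).2.1 : ℕ) := by
    have := mv 62 3 le_rfl le_rfl
    rw [show 3 + 62 = 65 by norm_num] at this
    omega
  have u3 : 3 ≤ ((u 3).2.1 : ℕ) := by
    have := (key 3 65 (by norm_num) (by norm_num) (by norm_num) (by norm_num) (by norm_num)).2
    simp only [Hp] at this
    omega
  have v3 : 3 ≤ ((v 3).2.1 : ℕ) := by
    have := (key 65 3 (by norm_num) (by norm_num) (by norm_num) (by norm_num) (by norm_num)).2
    simp only [Hp] at this
    omega
  have ua : ∀ a, 3 ≤ a → a < 66 → ((u a).2.1 : ℕ) = a := by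
    intro a h1 h2
    have h3 := mu (a - 3) 3 le_rfl (by omega)
    have h4 := mu (65 - a) a h1 (by omega)
    have h5 := (u 65).2.1.2
    rw [show 3 + (a - 3) = a by omega] at h3
    rw [show a + (65 - a) = 65 by omega] at h4
    omega
  have va : ∀ a, 3 ≤ a → a < 66 → ((v a).2.1 : ℕ) = a := by
    intro a h1 h2
    have h3 := mv (a - 3) 3 le_rfl (by omega)
    have h4 := mv (65 - a) a h1 (by omega)
    have h5 := (v 65).2.1.2
    rw [show 3 + (a - 3) = a by omega] at h3
    rw [show a + (65 - a) = 65 by omega] at h4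
    omega
  refine ⟨(u 3).1, fun a h1 h2 => ⟨u a, hu a h1 h2, ?_⟩, fun a h1 h2 => ⟨v a, hv a h1 h2, ?_⟩⟩
  · exact ⟨gu a h1 h2, ua a h1 h2, Or.inl h1⟩
  · exact ⟨gv' a h1 h2, va a h1 h2, Or.inl h1⟩

lemma all_roles (hc : IsCopy M ρ κ) : ∃ g : Fin h × Fin 3,
    (∀ a, a < 3 → rowRole g a (ρ a)) ∧ (∀ b, b < 3 → colRole g b (κ b)) := by
  obtain ⟨g, hu, hv⟩ := core_ident hc
  refine ⟨g, fun a ha => ?_, fun b hb => ?_⟩
  · obtain ⟨y, hy, hy'⟩ := hv (a + 3) (by omega) (by omega)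
    have hM : M (ρ a) (κ (a + 3)) := by
      rw [hc.2.2 a (a + 3) (by omega) (by omega)]
      unfold Hp
      omega
    rw [hy, M_inr_right] at hM
    obtain ⟨g', a', b', h1, h2, h3⟩ := hM
    have hg : g' = g := by
      obtain ⟨g0, b0, t0⟩ := y
      simp only [colRole] at h2 hy'
      rw [← h2.1, hy'.1]
    subst hg
    have hb' := colRole_unique h2 hy'
    subst hb'
    have hall : ∀ b, 3 ≤ b → b < 66 → (Hp a' b ↔ Hp a b) := by
      intro b hb1 hb2
      obtain ⟨z, hz, hz'⟩ := hv b hb1 hb2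
      rw [← hc.2.2 a b (by omega) hb2, hz]
      exact (M_iff_right h1 hz').symm
    have h64 := hall 64 (by norm_num) (by norm_num)
    have h65 := hall 65 (by norm_num) (by norm_num)
    have : a' = a := by
      simp only [Hp] at h3 h64 h65
      omega
    rw [← this]
    rw [← this] at h1
    convert h1
  · obtain ⟨y, hy, hy'⟩ := hu (b + 3) (by omega) (by omega)
    have hM : M (ρ (b + 3)) (κ b) := by
      rw [hc.2.2 (b + 3) b (by omega) (by omega)]
      unfold Hp
      omega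
    rw [hy, M_inr_left] at hM
    obtain ⟨g', a', b', h1, h2, h3⟩ := hM
    have hg : g' = g := by
      obtain ⟨g0, b0, t0⟩ := y
      simp only [rowRole] at h1 hy'
      rw [← h1.1, hy'.1]
    subst hg
    have hb' := rowRole_unique h1 hy'
    subst hb'
    have hall : ∀ a, 3 ≤ a → a < 66 → (Hp a b' ↔ Hp a b) := by
      intro a ha1 ha2
      obtain ⟨z, hz, hz'⟩ := hu a ha1 ha2
      rw [← hc.2.2 a b ha2 (by omega), hz]
      exact (M_iff_left hz' h2).symm
    have h64 := hall 64 (by norm_num) (by norm_num)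
    have h65 := hall 65 (by norm_num) (by norm_num)
    have : b' = b := by
      simp only [Hp] at h3 h64 h65
      omega
    rw [← this]
    rw [← this] at h2
    convert h2

lemma lt_main {x y : Fin (2 ^ h) × Fin h × Fin 2} (hlt : lt (h := h) (.inl x) (.inl y)) :
    (x.1 : ℕ) ≤ y.1 := by
  obtain ⟨i, k, s⟩ := x
  obtain ⟨i', k', s'⟩ := y
  simp only [lt, k1, k2] at hlt
  simp only
  omega

lemma row_main {g : Fin h × Fin 3} {a : ℕ} {r : R h} (hr : rowRole g a r)
    (hn : ¬ actR g.1 g.2 a) : ∃ i k s, r = .inl (i, k, s) ∧ mrr g.1 g.2 i k s a := by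
  rcases r with ⟨i, k, s⟩ | ⟨g', a', t⟩
  · exact ⟨i, k, s, rfl, hr⟩
  · exact absurd hr.2.2 hn

lemma col_main {g : Fin h × Fin 3} {a : ℕ} {r : R h} (hr : colRole g a r)
    (hn : ¬ actC h g.1 g.2 a) : ∃ i k s, r = .inl (i, k, s) ∧ mcr g.1 g.2 i k s a := by
  rcases r with ⟨i, k, s⟩ | ⟨g', a', t⟩
  · exact ⟨i, k, s, rfl, hr⟩
  · exact absurd hr.2.2 hn

/-- every copy of the pattern in the host passes through the diagonal of the last block -/
theorem rigid (hc : IsCopy M ρ κ) : ∃ (i : Fin (2 ^ h)) (k : Fin h), (k : ℕ) = 0 ∧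
    ρ 1 = .inl (i, k, 0) ∧ κ 0 = .inl (i, k, 0) := by
  obtain ⟨⟨k, q⟩, hr, hcol⟩ := all_roles hc
  have hq := q.2
  have H11 : ¬ M (ρ 1) (κ 1) := by
    rw [hc.2.2 1 1 (by norm_num) (by norm_num)]; simp [Hp]
  have H10 : M (ρ 1) (κ 0) := by
    rw [hc.2.2 1 0 (by norm_num) (by norm_num)]; simp [Hp]
  have H12 : M (ρ 1) (κ 2) := by
    rw [hc.2.2 1 2 (by norm_num) (by norm_num)]; simp [Hp]
  have H01 : M (ρ 0) (κ 1) := by
    rw [hc.2.2 0 1 (by norm_num) (by norm_num)]; simp [Hp]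
  have H21 : M (ρ 2) (κ 1) := by
    rw [hc.2.2 2 1 (by norm_num) (by norm_num)]; simp [Hp]
  obtain ⟨i1, kr1, s1, e1, m1⟩ := row_main (hr 1 (by norm_num)) (by simp [actR])
  simp only [mrr] at m1
  by_cases hq2 : (q : ℕ) < 2
  · exfalso
    obtain ⟨j1, kc1, t1, f1, n1⟩ := col_main (hcol 1 (by norm_num)) (by simp only [actC]; omega)
    simp only [mcr] at n1
    rw [e1, f1, M_inl] at H11
    simp only [X] at H11
    have hk1 : (kr1 : ℕ) = k := by omega
    have hk2 : (kc1 : ℕ) = k := by omega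
    have hb : I k i1 % 2 = I k j1 % 2 := by
      rw [hk1] at m1
      rw [hk2] at n1
      omega
    rw [hk1, hk2] at H11
    by_cases htop : (k : ℕ) + 1 = h
    · have := I_top htop i1.2
      have := I_top htop j1.2
      omega
    · obtain ⟨j0, kc0, t0, f0, n0⟩ := col_main (hcol 0 (by norm_num))
        (by simp only [actC]; omega)
      obtain ⟨j2, kc2, t2, f2, n2⟩ := col_main (hcol 2 (by norm_num))
        (by simp only [actC]; omega)
      simp only [mcr] at n0 n2
      rw [e1, f0, M_inl] at H10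
      rw [e1, f2, M_inl] at H12
      simp only [X] at H10 H12
      have hk0 : (kc0 : ℕ) = k + 1 := by omega
      have hk2' : (kc2 : ℕ) = k + 1 := by omega
      rw [hk0] at H10
      rw [hk2'] at H12
      have l1 := hc.2.1 0 (by norm_num)
      have l2 := hc.2.1 1 (by norm_num)
      rw [f0, f1] at l1
      rw [f1, f2] at l2
      have l1' := I_mono (k + 1) (lt_main l1)
      have l2' := I_mono (k + 1) (lt_main l2)
      simp only at l1' l2'
      have e3 : I (k + 1) i1 = I (k + 1) j1 := by omega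
      rw [I_succ, I_succ] at e3
      omega
  · by_cases hk0 : (k : ℕ) = 0
    · obtain ⟨j0, kc0, t0, f0, n0⟩ := col_main (hcol 0 (by norm_num))
        (by simp only [actC]; omega)
      simp only [mcr] at n0
      rw [e1, f0, M_inl] at H10
      simp only [X] at H10
      have a1 : (kr1 : ℕ) = 0 := by omega
      have a2 : (kc0 : ℕ) = 0 := by omega
      have a3 : (s1 : ℕ) = 0 := by omega
      have a4 : (t0 : ℕ) = 0 := by omega
      rw [a2, I_zero, I_zero] at H10
      refine ⟨i1, kr1, a1, ?_, ?_⟩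
      · rw [e1, show s1 = 0 from Fin.ext a3]
      · rw [f0, show t0 = 0 from Fin.ext a4, show kc0 = kr1 from Fin.ext (by omega),
          show j0 = i1 from Fin.ext H10.2.symm]
    · exfalso
      obtain ⟨j1, kc1, t1, f1, n1⟩ := col_main (hcol 1 (by norm_num)) (by simp only [actC]; omega)
      obtain ⟨i0, kr0, s0, e0, m0⟩ := row_main (hr 0 (by norm_num)) (by simp only [actR]; omega)
      obtain ⟨i2, kr2, s2, e2, m2⟩ := row_main (hr 2 (by norm_num)) (by simp only [actR]; omega)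
      simp only [mcr] at n1
      simp only [mrr] at m0 m2
      rw [e1, f1, M_inl] at H11
      rw [e0, f1, M_inl] at H01
      rw [e2, f1, M_inl] at H21
      simp only [X] at H11 H01 H21
      have l1 := hc.1 0 (by norm_num)
      have l2 := hc.1 1 (by norm_num)
      rw [e0, e1] at l1
      rw [e1, e2] at l2
      have l1' := I_mono kc1 (lt_main l1)
      have l2' := I_mono kc1 (lt_main l2)
      simp only at l1' l2'
      omega

end Crest.Agent.R47
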